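import Vale.Agent.P233.Gig.Defs

/-! P233, block E6a, second half: continuity of the weak Hessian in the test function with respect
to the graph norm (helper794). -/

set_option linter.all false

open MeasureTheory Filter Topology Set
open scoped ENNReal NNReal InnerProductSpace

universe u

namespace Vale.Agent.P233.H794

variable {M : Type*} [MeasurableSpace M] {m : Measure M} {C : Calc m}
variable {E : Type*} [NormedAddCommGroup E] [InnerProductSpace ℝ E]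
variable {Gr : (M →ₘ[m] ℝ) → M → E} {HO : (M →ₘ[m] ℝ) → M → E →L[ℝ] E}

/-- application of a weakly measurable field of operators to a measurable field -/
theorem aesm_apply {A : M → E →L[ℝ] E} (hA : ∀ v, AEStronglyMeasurable (fun x => A x v) m)
    {G : M → E} (hG : AEStronglyMeasurable G m) :
    AEStronglyMeasurable (fun x => A x (G x)) m := by
  have key : ∀ g : SimpleFunc M E, AEStronglyMeasurable (fun x => A x (g x)) m := by
    intro g
    induction g using SimpleFunc.induction with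
    | const c hs =>
      rename_i s
      have h1 := (hA c).indicator hs
      refine h1.congr (Eventually.of_forall fun x => ?_)
      by_cases hx : x ∈ s
      · simp [hx]
      · simp [hx]
    | add hd h1 h2 =>
      refine (h1.add h2).congr (Eventually.of_forall fun x => ?_)
      simp
  obtain ⟨G', hG', hae⟩ := hG
  have h2 : AEStronglyMeasurable (fun x => A x (G' x)) m := by
    refine aestronglyMeasurable_of_tendsto_ae atTop (f := fun n x => A x (hG'.approx n x))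
      (fun n => key _) (Eventually.of_forall fun x => ?_)
    exact ((A x).continuous.tendsto _).comp (hG'.tendsto_approx x)
  exact h2.congr (hae.mono fun x hx => by simp only [hx])

/-- Cauchy–Schwarz -/
theorem cs_real {f g : M → ℝ} (hf : MemLp f 2 m) (hg : MemLp g 2 m) :
    ∫ x, f x * g x ∂m ≤ √(∫ x, f x ^ 2 ∂m) * √(∫ x, g x ^ 2 ∂m) := by
  set a : M →ₘ[m] ℝ := AEEqFun.mk f hf.1 with ha
  set b : M →ₘ[m] ℝ := AEEqFun.mk g hg.1 with hb
  have ea := AEEqFun.coeFn_mk f hf.1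
  have eb := AEEqFun.coeFn_mk g hg.1
  have h1 := (le_abs_self _).trans (I_abs_le ((memLp_congr_ae ea).2 hf) ((memLp_congr_ae eb).2 hg))
  have e1 : I (a * b) = ∫ x, f x * g x ∂m := by
    unfold I
    refine integral_congr_ae ?_
    filter_upwards [mul_ae a b, ea, eb] with x h1 h2 h3
    rw [h1, h2, h3]
  have e2 : I (a ^ 2) = ∫ x, f x ^ 2 ∂m := by
    unfold I
    refine integral_congr_ae ?_
    filter_upwards [sq_ae a, ea] with x h1 h2
    rw [h1, h2]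
  have e3 : I (b ^ 2) = ∫ x, g x ^ 2 ∂m := by
    unfold I
    refine integral_congr_ae ?_
    filter_upwards [sq_ae b, eb] with x h1 h2
    rw [h1, h2]
  rw [← e1, ← e2, ← e3]
  exact h1

theorem trilin {A : M → E →L[ℝ] E} (hA : ∀ v, AEStronglyMeasurable (fun x => A x v) m)
    {L : M → ℝ} (hL : MemLp L 2 m) (hAL : ∀ᵐ x ∂m, ‖A x‖ ≤ L x) {G V : M → E} (hG : MemLp G 2 m)
    (hV : AEStronglyMeasurable V m) {K : ℝ} (hK : 0 ≤ K) (hVK : ∀ᵐ x ∂m, ‖V x‖ ≤ K) :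
    Integrable (fun x => ⟪A x (G x), V x⟫_ℝ) m ∧
      |∫ x, ⟪A x (G x), V x⟫_ℝ ∂m| ≤ K * (√(∫ x, L x ^ 2 ∂m) * √(∫ x, ‖G x‖ ^ 2 ∂m)) := by
  have hGn : MemLp (fun x => ‖G x‖) 2 m := hG.norm
  have hint : Integrable (fun x => L x * ‖G x‖) m := hL.integrable_mul hGn
  have hb : ∀ᵐ x ∂m, ‖⟪A x (G x), V x⟫_ℝ‖ ≤ K * (L x * ‖G x‖) := by
    filter_upwards [hAL, hVK] with x h1 h2
    calc ‖⟪A x (G x), V x⟫_ℝ‖ ≤ ‖A x (G x)‖ * ‖V x‖ := norm_inner_le_norm _ _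
      _ ≤ (L x * ‖G x‖) * K := by
        gcongr
        · exact mul_nonneg ((norm_nonneg _).trans h1) (norm_nonneg _)
        · exact ((A x).le_opNorm _).trans (mul_le_mul_of_nonneg_right h1 (norm_nonneg _))
      _ = K * (L x * ‖G x‖) := mul_comm _ _
  have hI : Integrable (fun x => ⟪A x (G x), V x⟫_ℝ) m :=
    (hint.const_mul K).mono' ((aesm_apply hA hG.1).inner hV) hb
  refine ⟨hI, ?_⟩
  have h1 : |∫ x, ⟪A x (G x), V x⟫_ℝ ∂m| ≤ ∫ x, K * (L x * ‖G x‖) ∂m := by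
    refine (norm_integral_le_integral_norm _).trans (integral_mono_ae hI.norm (hint.const_mul K) hb)
  refine h1.trans ?_
  rw [integral_const_mul]
  exact mul_le_mul_of_nonneg_left (cs_real hL hGn) hK

theorem tendsto_I_mul {ι : Type*} {l : Filter ι} {f g : ι → M →ₘ[m] ℝ} {f₀ g₀ : M →ₘ[m] ℝ}
    (hf : ∀ i, MemLp (f i) 2 m) (hg : ∀ i, MemLp (g i) 2 m) (hf₀ : MemLp f₀ 2 m)
    (hg₀ : MemLp g₀ 2 m) (h1 : Tendsto (fun i => I ((f i - f₀) ^ 2)) l (𝓝 0))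
    (h2 : Tendsto (fun i => I ((g i - g₀) ^ 2)) l (𝓝 0)) :
    Tendsto (fun i => I (f i * g i)) l (𝓝 (I (f₀ * g₀))) := by
  have a1 : Tendsto (fun i => √(I ((f i - f₀) ^ 2))) l (𝓝 0) := by
    have := (Real.continuous_sqrt.tendsto 0).comp h1
    rwa [Real.sqrt_zero] at this
  have a2 : Tendsto (fun i => √(I ((g i - g₀) ^ 2))) l (𝓝 0) := by
    have := (Real.continuous_sqrt.tendsto 0).comp h2
    rwa [Real.sqrt_zero] at this
  have h3 : Tendsto (fun i => √(I ((f i - f₀) ^ 2)) * √(I ((g i - g₀) ^ 2))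
      + √(I ((f i - f₀) ^ 2)) * √(I (g₀ ^ 2)) + √(I (f₀ ^ 2)) * √(I ((g i - g₀) ^ 2)))
      l (𝓝 (0 : ℝ)) := by
    have := ((a1.mul a2).add (a1.mul_const (√(I (g₀ ^ 2))))).add (a2.const_mul (√(I (f₀ ^ 2))))
    simpa using this
  rw [tendsto_iff_dist_tendsto_zero]
  refine squeeze_zero (fun _ => dist_nonneg) (fun i => ?_) h3
  have hfi := mem_sub (hf i) hf₀
  have hgi := mem_sub (hg i) hg₀
  have e : f i * g i - f₀ * g₀ = (f i - f₀) * (g i - g₀) + (f i - f₀) * g₀ + f₀ * (g i - g₀) := by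
    ring
  have e2 : I (f i * g i) - I (f₀ * g₀) = I ((f i - f₀) * (g i - g₀)) + I ((f i - f₀) * g₀)
      + I (f₀ * (g i - g₀)) := by
    rw [← I_sub (mem_mul_22 (hf i) (hg i)) (mem_mul_22 hf₀ hg₀), e,
      I_add (mem_add (mem_mul_22 hfi hgi) (mem_mul_22 hfi hg₀)) (mem_mul_22 hf₀ hgi),
      I_add (mem_mul_22 hfi hgi) (mem_mul_22 hfi hg₀)]
  rw [Real.dist_eq, e2]
  refine (abs_add_le _ _).trans (add_le_add ((abs_add_le _ _).trans (add_le_add ?_ ?_)) ?_)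
  · exact I_abs_le hfi hgi
  · exact I_abs_le hfi hg₀
  · exact I_abs_le hf₀ hgi

section dir
variable (hC : IsDir C)
include hC

theorem I_sq_Γ_le {f g : M →ₘ[m] ℝ} (hf : f ∈ C.W) (hf' : MemLp (C.Γ f f) ∞ m) {K : ℝ}
    (hK : ∀ᵐ x ∂m, C.Γ f f x ≤ K) (hg : g ∈ C.W) : I (C.Γ f g ^ 2) ≤ K * I (C.Γ g g) := by
  rw [← I_smul]
  refine I_mono (mem_sq (hC.Γ_mem2 hf hf' hg)) (mem_smul _ (hC.mem1 g hg)) ?_
  rw [le_iff_ae]
  filter_upwards [sq_ae (C.Γ f g), smul_ae (C.Γ g g) K, hC.Γ_cs_ae hf hg, hC.Γ_nonneg_ae hg, hK]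
    with x h1 h2 h3 h4 h5
  rw [h1, h2]
  exact h3.trans (mul_le_mul_of_nonneg_right h5 h4)

theorem I_top_Γ_le {z f g : M →ₘ[m] ℝ} (hz : MemLp z ∞ m) {K : ℝ} (hK0 : 0 ≤ K)
    (hK : ∀ᵐ x ∂m, |z x| ≤ K) (hf : f ∈ C.W) (hg : g ∈ C.W) :
    |I (z * C.Γ f g)| ≤ K * (√(I (C.Γ f f)) * √(I (C.Γ g g))) := by
  have h1 := hC.Γ_mem1 hf hg
  have h2 : |I (z * C.Γ f g)| ≤ ∫ x, K * |C.Γ f g x| ∂m := by
    refine (norm_integral_le_integral_norm _).trans
      (integral_mono_ae (int_of_mem (mem_mul_top hz h1)).norm ((int_of_mem h1).abs.const_mul K) ?_)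
    filter_upwards [mul_ae z (C.Γ f g), hK] with x a1 a2
    show ‖(z * C.Γ f g) x‖ ≤ K * |C.Γ f g x|
    rw [a1, Real.norm_eq_abs, abs_mul]
    exact mul_le_mul_of_nonneg_right a2 (abs_nonneg _)
  refine h2.trans ?_
  rw [integral_const_mul]
  exact mul_le_mul_of_nonneg_left (hC.int_abs_Γ_le hf hg) hK0

theorem tendsto_I_Γ_self {ι : Type*} {l : Filter ι} {z h : M →ₘ[m] ℝ} (hz : MemLp z ∞ m)
    {u : ι → M →ₘ[m] ℝ} (hu : ∀ i, u i ∈ C.W) (hh : h ∈ C.W)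
    (hlim : Tendsto (fun i => I (C.Γ (h - u i) (h - u i))) l (𝓝 0)) :
    Tendsto (fun i => I (z * C.Γ (u i) (u i))) l (𝓝 (I (z * C.Γ h h))) := by
  obtain ⟨K, hK⟩ := mem_top_iff.1 hz
  have hK' : ∀ᵐ x ∂m, |z x| ≤ |K| := hK.mono fun x hx => hx.trans (le_abs_self K)
  have a1 : Tendsto (fun i => √(I (C.Γ (h - u i) (h - u i)))) l (𝓝 0) := by
    have := (Real.continuous_sqrt.tendsto 0).comp hlim
    rwa [Real.sqrt_zero] at this
  have h3 : Tendsto (fun i => 2 * (|K| * (√(I (C.Γ h h)) * √(I (C.Γ (h - u i) (h - u i)))))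
      + |K| * (√(I (C.Γ (h - u i) (h - u i))) * √(I (C.Γ (h - u i) (h - u i))))) l
      (𝓝 (0 : ℝ)) := by
    have := (((a1.const_mul (√(I (C.Γ h h)))).const_mul |K|).const_mul 2).add
      ((a1.mul a1).const_mul |K|)
    simpa using this
  rw [tendsto_iff_dist_tendsto_zero]
  refine squeeze_zero (fun _ => dist_nonneg) (fun i => ?_) h3
  have hd := hC.sub_mem hh (hu i)
  have e := hC.Γ_expand (-1) hh hd
  have e0 : h + (-1 : ℝ) • (h - u i) = u i := by rw [neg_one_smul]; ring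
  rw [e0] at e
  have e1 : z * C.Γ (u i) (u i) = z * C.Γ h h + ((-2 : ℝ) • (z * C.Γ h (h - u i))
      + z * C.Γ (h - u i) (h - u i)) := by
    rw [e]
    have : ((-1 : ℝ) ^ 2) • C.Γ (h - u i) (h - u i) = C.Γ (h - u i) (h - u i) := by norm_num
    rw [this, mul_add, mul_add, mul_smul_comm, add_assoc]
    norm_num
  have m1 := mem_mul_top hz (hC.mem1 h hh)
  have m2 := mem_mul_top hz (hC.Γ_mem1 hh hd)
  have m3 := mem_mul_top hz (hC.mem1 _ hd)
  rw [Real.dist_eq, e1, I_add m1 (mem_add (mem_smul _ m2) m3), I_add (mem_smul _ m2) m3, I_smul]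
  have b1 := I_top_Γ_le hC hz (abs_nonneg K) hK' hh hd
  have b2 := I_top_Γ_le hC hz (abs_nonneg K) hK' hd hd
  calc |I (z * C.Γ h h) + (-2 * I (z * C.Γ h (h - u i)) + I (z * C.Γ (h - u i) (h - u i)))
        - I (z * C.Γ h h)|
      = |-2 * I (z * C.Γ h (h - u i)) + I (z * C.Γ (h - u i) (h - u i))| := by congr 1; ring
    _ ≤ |-2 * I (z * C.Γ h (h - u i))| + |I (z * C.Γ (h - u i) (h - u i))| := abs_add_le _ _
    _ ≤ _ := by
      rw [abs_mul, abs_neg, abs_two]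
      exact add_le_add (mul_le_mul_of_nonneg_left b1 (by norm_num)) b2

end dir

section gamma
variable (hC : IsGamma C) {κ : ℝ} (hB : C.BEi κ) (hG : IsGrad C Gr) (hH : IsHess C Gr HO)
variable {F w h : M →ₘ[m] ℝ}
include hC hB hG hH

/-- the third order term of the weak Hessian -/
theorem I_hess_eq [SigmaFinite m] (hF : F ∈ C.W) (hh : h ∈ C.Test) :
    I (w * C.Γ F (C.Γ h h)) = 2 * ∫ x, ⟪HO h x (Gr h x), w x • Gr F x⟫_ℝ ∂m := by
  have hW : C.Γ h h ∈ C.W := (IsGamma.Γ_mem hC hB hh hh).1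
  rw [← integral_const_mul]
  unfold I
  refine integral_congr_ae ?_
  filter_upwards [mul_ae w (C.Γ F (C.Γ h h)), hG.inner F hF _ hW, hH.prod h hh h hh]
    with x h1 h2 h3
  rw [h1, ← h2, h3, real_inner_smul_right, inner_add_right, real_inner_comm (Gr F x)]
  ring

theorem norm_Gr_le (hF : F ∈ C.W) {K : ℝ} (hK : ∀ᵐ x ∂m, C.Γ F F x ≤ K) :
    ∀ᵐ x ∂m, ‖Gr F x‖ ≤ √K := by
  filter_upwards [hG.norm_eq hF, hK] with x h1 h2
  rw [h1]
  exact Real.sqrt_le_sqrt h2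

theorem tendsto_hess [SigmaFinite m] {V : M → E} (hV : AEStronglyMeasurable V m) {K : ℝ}
    (hK : 0 ≤ K) (hVK : ∀ᵐ x ∂m, ‖V x‖ ≤ K) (hh : h ∈ C.Test) {ι : Type*} {l : Filter ι}
    {u : ι → M →ₘ[m] ℝ} (hu : ∀ i, u i ∈ C.Test)
    (hlim : Tendsto (fun i => C.nrm2 (h - u i) + I (C.lap (h - u i) ^ 2)) l (𝓝 0)) :
    Tendsto (fun i => ∫ x, ⟪HO (u i) x (Gr (u i) x), V x⟫_ℝ ∂m) l
      (𝓝 (∫ x, ⟪HO h x (Gr h x), V x⟫_ℝ ∂m)) := by
  obtain ⟨c, hc⟩ := hH.norm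
  have hc' : ∀ b ∈ C.Test, ∃ L : M → ℝ, MemLp L 2 m ∧ (∀ᵐ x ∂m, ‖HO b x‖ ≤ L x) ∧
      ∫ x, L x ^ 2 ∂m ≤ |c| * (I (C.lap b ^ 2) + I (C.Γ b b)) := by
    intro b hb
    obtain ⟨L, h1, h2, h3⟩ := hc b hb
    refine ⟨L, h1, h2, h3.trans (mul_le_mul_of_nonneg_right (le_abs_self c) ?_)⟩
    exact add_nonneg (I_sq_nonneg _) (hC.toIsDir.E_nonneg (IsGamma.test_A hC hb).1)
  have hhW : h ∈ C.W := (IsGamma.test_A hC hh).1
  have huW : ∀ i, u i ∈ C.W := fun i => (IsGamma.test_A hC (hu i)).1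
  -- the difference
  have hd : ∀ i, h - u i ∈ C.Test := by
    intro i
    have := IsGamma.test_add' hC hh (IsGamma.test_smul' hC (-1) (hu i))
    rwa [neg_one_smul, ← sub_eq_add_neg] at this
  have hdW : ∀ i, h - u i ∈ C.W := fun i => (IsGamma.test_A hC (hd i)).1
  set q : ι → ℝ := fun i => C.nrm2 (h - u i) + I (C.lap (h - u i) ^ 2) with hq
  have hq0 : ∀ i, 0 ≤ q i := fun i => add_nonneg (hC.toIsDir.nrm2_nonneg (hdW i)) (I_sq_nonneg _)
  have hEq : ∀ i, I (C.Γ (h - u i) (h - u i)) ≤ q i := fun i =>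
    (hC.toIsDir.E_le_nrm2 _).trans (le_add_of_nonneg_right (I_sq_nonneg _))
  have hLq : ∀ i, I (C.lap (h - u i) ^ 2) + I (C.Γ (h - u i) (h - u i)) ≤ q i := by
    intro i
    have := hC.toIsDir.E_le_nrm2 (h - u i)
    rw [hq]; simp only; linarith
  obtain ⟨L0, hL0, hL0', hL0''⟩ := hc' h hh
  have a1 : Tendsto (fun i => √(q i)) l (𝓝 0) := by
    have := (Real.continuous_sqrt.tendsto 0).comp hlim
    rwa [Real.sqrt_zero] at this
  have h3 : Tendsto (fun i => K * (√(∫ x, L0 x ^ 2 ∂m) * √(q i))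
      + K * (√|c| * √(q i) * (√(I (C.Γ h h)) + √(q i)))) l (𝓝 (0 : ℝ)) := by
    have := ((a1.const_mul (√(∫ x, L0 x ^ 2 ∂m))).const_mul K).add
      (((a1.const_mul (√|c|)).mul ((tendsto_const_nhds (x := √(I (C.Γ h h)))).add a1)).const_mul K)
    simpa using this
  rw [tendsto_iff_dist_tendsto_zero]
  refine squeeze_zero (fun _ => dist_nonneg) (fun i => ?_) h3
  obtain ⟨L1, hL1, hL1', hL1''⟩ := hc' (h - u i) (hd i)
  obtain ⟨t1, t1'⟩ := trilin (hH.meas h hh) hL0 hL0' (hG.mem _ (hdW i)) hV hK hVK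
  obtain ⟨t2, t2'⟩ := trilin (hH.meas (h - u i) (hd i)) hL1 hL1' (hG.mem _ (huW i)) hV hK hVK
  -- the identity
  have e1 : ∀ᵐ x ∂m, ⟪HO h x (Gr h x), V x⟫_ℝ - ⟪HO (u i) x (Gr (u i) x), V x⟫_ℝ
      = ⟪HO h x (Gr (h - u i) x), V x⟫_ℝ + ⟪HO (h - u i) x (Gr (u i) x), V x⟫_ℝ := by
    filter_upwards [hG.sub hC.toIsDir hhW (huW i), hH.lin (u i) (hu i) h hh (-1)] with x b1 b2
    have e3 : (-1 : ℝ) • u i + h = h - u i := by rw [neg_one_smul]; ring
    rw [e3] at b2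
    rw [b1, b2]
    simp only [map_sub, ContinuousLinearMap.add_apply, ContinuousLinearMap.smul_apply,
      inner_sub_left, inner_add_left, real_inner_smul_left]
    ring
  have t3 : Integrable (fun x => ⟪HO h x (Gr h x), V x⟫_ℝ) m :=
    (trilin (hH.meas h hh) hL0 hL0' (hG.mem _ hhW) hV hK hVK).1
  have t4 : Integrable (fun x => ⟪HO (u i) x (Gr (u i) x), V x⟫_ℝ) m := by
    refine (t3.sub (t1.add t2)).congr ?_
    filter_upwards [e1] with x b1
    simp only [Pi.sub_apply, Pi.add_apply]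
    linarith
  have e2 : ∫ x, ⟪HO h x (Gr h x), V x⟫_ℝ ∂m - ∫ x, ⟪HO (u i) x (Gr (u i) x), V x⟫_ℝ ∂m
      = ∫ x, ⟪HO h x (Gr (h - u i) x), V x⟫_ℝ ∂m
        + ∫ x, ⟪HO (h - u i) x (Gr (u i) x), V x⟫_ℝ ∂m := by
    rw [← integral_sub t3 t4, ← integral_add t1 t2]
    exact integral_congr_ae e1
  rw [dist_comm, Real.dist_eq, e2]
  refine (abs_add_le _ _).trans (add_le_add (t1'.trans ?_) (t2'.trans ?_))
  · rw [hG.int_norm_sq (hdW i)]
    gcongr
    exact hEq i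
  · rw [hG.int_norm_sq (huW i)]
    have b1 : √(∫ x, L1 x ^ 2 ∂m) ≤ √|c| * √(q i) := by
      rw [← Real.sqrt_mul (abs_nonneg c)]
      refine Real.sqrt_le_sqrt (hL1''.trans ?_)
      exact mul_le_mul_of_nonneg_left (hLq i) (abs_nonneg c)
    have b2 : √(I (C.Γ (u i) (u i))) ≤ √(I (C.Γ h h)) + √(q i) := by
      have hneg := hC.toIsDir.neg_mem (hdW i)
      have := hC.toIsDir.sqrt_E_add_le hhW hneg
      have e4 : h + -(h - u i) = u i := by ring
      rw [e4, hC.toIsDir.E_neg (hdW i)] at this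
      exact this.trans (add_le_add le_rfl (Real.sqrt_le_sqrt (hEq i)))
    gcongr

/-- The weak Hessian is continuous in the test function with respect to the graph norm. -/
theorem tendsto_wH [SigmaFinite m] (hF : F ∈ C.W) (hF' : MemLp (C.Γ F F) ∞ m) (hw : w ∈ C.Test)
    (hh : h ∈ C.Test) {ι : Type*} {l : Filter ι} {u : ι → M →ₘ[m] ℝ} (hu : ∀ i, u i ∈ C.Test)
    (hlim : Tendsto (fun i => C.nrm2 (h - u i) + I (C.lap (h - u i) ^ 2)) l (𝓝 0)) :
    Tendsto (fun i => C.wH F (u i) w) l (𝓝 (C.wH F h w)) := by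
  have hD := hC.toIsDir
  have hhW : h ∈ C.W := (IsGamma.test_A hC hh).1
  have huW : ∀ i, u i ∈ C.W := fun i => (IsGamma.test_A hC (hu i)).1
  have hwA := IsGamma.test_A hC hw
  have hd : ∀ i, h - u i ∈ C.Test := by
    intro i
    have := IsGamma.test_add' hC hh (IsGamma.test_smul' hC (-1) (hu i))
    rwa [neg_one_smul, ← sub_eq_add_neg] at this
  have hdW : ∀ i, h - u i ∈ C.W := fun i => (IsGamma.test_A hC (hd i)).1
  set q : ι → ℝ := fun i => C.nrm2 (h - u i) + I (C.lap (h - u i) ^ 2) with hq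
  have hEq : ∀ i, I (C.Γ (h - u i) (h - u i)) ≤ q i := fun i =>
    (hD.E_le_nrm2 _).trans (le_add_of_nonneg_right (I_sq_nonneg _))
  have hLq : ∀ i, I (C.lap (h - u i) ^ 2) ≤ q i := fun i =>
    le_add_of_nonneg_left (hD.nrm2_nonneg (hdW i))
  obtain ⟨KF, hKF⟩ := mem_top_iff.1 hF'
  have hKF' : ∀ᵐ x ∂m, C.Γ F F x ≤ |KF| := hKF.mono fun x hx =>
    (le_abs_self _).trans (hx.trans (le_abs_self _))
  obtain ⟨Kw, hKw⟩ := mem_top_iff.1 hwA.2
  have hKw' : ∀ᵐ x ∂m, |w x| ≤ |Kw| := hKw.mono fun x hx => hx.trans (le_abs_self _)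
  obtain ⟨KG, hKG⟩ := mem_top_iff.1 (IsGamma.test_Γ_top hC hw)
  have hKG' : ∀ᵐ x ∂m, C.Γ w w x ≤ |KG| := hKG.mono fun x hx =>
    (le_abs_self _).trans (hx.trans (le_abs_self _))
  have hl2 : ∀ b ∈ C.Test, MemLp (C.lap b) 2 m := fun b hb => hC.memLp _ (IsGamma.test_lap_mem hC hb)
  have hlsub : ∀ i, C.lap (h - u i) = C.lap h - C.lap (u i) := by
    intro i
    have h1 := hD.isLap_add (IsGamma.test_isLap hC hh)
      (hD.isLap_smul (-1) (IsGamma.test_isLap hC (hu i)))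
    rw [neg_one_smul, neg_one_smul, ← sub_eq_add_neg, ← sub_eq_add_neg] at h1
    exact hD.lap_eq h1
  -- first term
  have T1 : Tendsto (fun i => I (C.Γ F (u i) * (w * C.lap (u i) + C.Γ (u i) w))) l
      (𝓝 (I (C.Γ F h * (w * C.lap h + C.Γ h w)))) := by
    refine tendsto_I_mul (fun i => hD.Γ_mem2 hF hF' (huW i))
      (fun i => mem_add (mem_mul_top hwA.2 (hl2 _ (hu i))) ?_) (hD.Γ_mem2 hF hF' hhW)
      (mem_add (mem_mul_top hwA.2 (hl2 _ hh)) ?_) ?_ ?_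
    · rw [hD.symm _ (huW i) _ hwA.1]
      exact hD.Γ_mem2 hwA.1 (IsGamma.test_Γ_top hC hw) (huW i)
    · rw [hD.symm _ hhW _ hwA.1]
      exact hD.Γ_mem2 hwA.1 (IsGamma.test_Γ_top hC hw) hhW
    · have h1 : Tendsto (fun i => |KF| * q i) l (𝓝 0) := by simpa using hlim.const_mul |KF|
      refine squeeze_zero (fun i => I_sq_nonneg _) (fun i => ?_) h1
      have e1 : (C.Γ F (u i) - C.Γ F h) ^ 2 = C.Γ F (h - u i) ^ 2 := by
        rw [hD.Γ_sub_right hF hhW (huW i)]; ring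
      rw [e1]
      exact (I_sq_Γ_le hD hF hF' hKF' (hdW i)).trans
        (mul_le_mul_of_nonneg_left (hEq i) (abs_nonneg _))
    · have h1 : Tendsto (fun i => 2 * (|Kw| ^ 2 * q i) + 2 * (|KG| * q i)) l (𝓝 0) := by
        have := ((hlim.const_mul (|Kw| ^ 2)).const_mul 2).add ((hlim.const_mul |KG|).const_mul 2)
        rwa [mul_zero, mul_zero, mul_zero, mul_zero, add_zero] at this
      refine squeeze_zero (fun i => I_sq_nonneg _) (fun i => ?_) h1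
      have e1 : (w * C.lap (u i) + C.Γ (u i) w - (w * C.lap h + C.Γ h w)) ^ 2
          = (w * C.lap (h - u i) + C.Γ w (h - u i)) ^ 2 := by
        rw [hlsub, hD.Γ_sub_right hwA.1 hhW (huW i), hD.symm _ (huW i) _ hwA.1,
          hD.symm _ hhW _ hwA.1]
        ring
      rw [e1]
      have m1 := mem_mul_top hwA.2 (hl2 _ (hd i))
      have m2 := hD.Γ_mem2 hwA.1 (IsGamma.test_Γ_top hC hw) (hdW i)
      refine (I_sq_add_le m1 m2).trans (add_le_add (mul_le_mul_of_nonneg_left ?_ (by norm_num))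
        (mul_le_mul_of_nonneg_left ?_ (by norm_num)))
      · have h2 : I ((w * C.lap (h - u i)) ^ 2) ≤ |Kw| ^ 2 * I (C.lap (h - u i) ^ 2) := by
          rw [← I_smul]
          refine I_mono (mem_sq m1) (mem_smul _ (mem_sq (hl2 _ (hd i)))) ?_
          rw [le_iff_ae]
          filter_upwards [sq_ae (w * C.lap (h - u i)), mul_ae w (C.lap (h - u i)),
            smul_ae (C.lap (h - u i) ^ 2) (|Kw| ^ 2), sq_ae (C.lap (h - u i)), hKw']
            with x b1 b2 b3 b4 b5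
          rw [b1, b2, b3, b4, mul_pow, ← sq_abs (w x)]
          gcongr
        exact h2.trans (mul_le_mul_of_nonneg_left (hLq i) (by positivity))
      · exact (I_sq_Γ_le hD hwA.1 (IsGamma.test_Γ_top hC hw) hKG' (hdW i)).trans
          (mul_le_mul_of_nonneg_left (hEq i) (abs_nonneg _))
  -- second term
  have T2 : Tendsto (fun i => I (w * C.Γ F (C.Γ (u i) (u i)))) l
      (𝓝 (I (w * C.Γ F (C.Γ h h)))) := by
    rw [I_hess_eq hC hB hG hH hF hh]
    simp_rw [fun i => I_hess_eq hC hB hG hH (w := w) hF (hu i)]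
    refine Tendsto.const_mul 2 ?_
    refine tendsto_hess hC hB hG hH (V := fun x => w x • Gr F x) ?_
      (K := |Kw| * √|KF|) (by positivity) ?_ hh hu hlim
    · exact w.aestronglyMeasurable.smul (hG.mem F hF).1
    · filter_upwards [hKw', norm_Gr_le hC hB hG hH hF hKF'] with x b1 b2
      rw [norm_smul, Real.norm_eq_abs]
      gcongr
  unfold Calc.wH
  exact T1.neg.sub (T2.const_mul _)

/-- continuity of the right hand side of `RadHess` -/
theorem tendsto_rhs (hF : F ∈ C.W) (hF' : MemLp (C.Γ F F) ∞ m) {a b : M →ₘ[m] ℝ}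
    (ha : MemLp a ∞ m) (hb : MemLp b ∞ m) (hw : MemLp w ∞ m)
    (hh : h ∈ C.W) {ι : Type*} {l : Filter ι} {u : ι → M →ₘ[m] ℝ} (hu : ∀ i, u i ∈ C.W)
    (hlim : Tendsto (fun i => I (C.Γ (h - u i) (h - u i))) l (𝓝 0)) :
    Tendsto (fun i => I (w * (a * C.Γ (u i) (u i) + b * C.Γ F (u i) ^ 2))) l
      (𝓝 (I (w * (a * C.Γ h h + b * C.Γ F h ^ 2)))) := by
  have hD := hC.toIsDir
  obtain ⟨KF, hKF⟩ := mem_top_iff.1 hF'
  have hKF' : ∀ᵐ x ∂m, C.Γ F F x ≤ |KF| := hKF.mono fun x hx =>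
    (le_abs_self _).trans (hx.trans (le_abs_self _))
  have hwa : MemLp (w * a : M →ₘ[m] ℝ) ∞ m := mem_mul_top hw ha
  have hwb : MemLp (w * b : M →ₘ[m] ℝ) ∞ m := mem_mul_top hw hb
  have hdW : ∀ i, h - u i ∈ C.W := fun i => hD.sub_mem hh (hu i)
  have e : ∀ k ∈ C.W, I (w * (a * C.Γ k k + b * C.Γ F k ^ 2))
      = I (w * a * C.Γ k k) + I ((w * b * C.Γ F k) * C.Γ F k) := by
    intro k hk
    rw [← I_add (mem_mul_top hwa (hD.mem1 k hk))
      (mem_mul_22 (mem_mul_top hwb (hD.Γ_mem2 hF hF' hk)) (hD.Γ_mem2 hF hF' hk))]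
    congr 1; ring
  rw [e h hh]
  simp_rw [fun i => e (u i) (hu i)]
  refine (tendsto_I_Γ_self hD hwa hu hh hlim).add ?_
  have h1 : Tendsto (fun i => I ((C.Γ F (u i) - C.Γ F h) ^ 2)) l (𝓝 0) := by
    have h2 : Tendsto (fun i => |KF| * I (C.Γ (h - u i) (h - u i))) l (𝓝 0) := by
      simpa using hlim.const_mul |KF|
    refine squeeze_zero (fun i => I_sq_nonneg _) (fun i => ?_) h2
    have e1 : (C.Γ F (u i) - C.Γ F h) ^ 2 = C.Γ F (h - u i) ^ 2 := by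
      rw [hD.Γ_sub_right hF hh (hu i)]; ring
    rw [e1]
    exact I_sq_Γ_le hD hF hF' hKF' (hdW i)
  refine tendsto_I_mul (fun i => mem_mul_top hwb (hD.Γ_mem2 hF hF' (hu i)))
    (fun i => hD.Γ_mem2 hF hF' (hu i)) (mem_mul_top hwb (hD.Γ_mem2 hF hF' hh))
    (hD.Γ_mem2 hF hF' hh) ?_ h1
  obtain ⟨Kz, hKz⟩ := mem_top_iff.1 hwb
  have h3 : Tendsto (fun i => |Kz| ^ 2 * I ((C.Γ F (u i) - C.Γ F h) ^ 2)) l (𝓝 0) := by
    have := h1.const_mul (|Kz| ^ 2)
    rwa [mul_zero] at this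
  refine squeeze_zero (fun i => I_sq_nonneg _) (fun i => ?_) h3
  have m1 := mem_sub (hD.Γ_mem2 hF hF' (hu i)) (hD.Γ_mem2 hF hF' hh)
  rw [← mul_sub, ← I_smul]
  refine I_mono (mem_sq (mem_mul_top hwb m1)) (mem_smul _ (mem_sq m1)) ?_
  rw [le_iff_ae]
  filter_upwards [sq_ae (w * b * (C.Γ F (u i) - C.Γ F h)),
    mul_ae (w * b) (C.Γ F (u i) - C.Γ F h), smul_ae ((C.Γ F (u i) - C.Γ F h) ^ 2) (|Kz| ^ 2),
    sq_ae (C.Γ F (u i) - C.Γ F h), hKz] with x b1 b2 b3 b4 b5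
  rw [b1, b2, b3, b4, mul_pow, ← sq_abs ((w * b : M →ₘ[m] ℝ) x)]
  exact mul_le_mul_of_nonneg_right
    (pow_le_pow_left₀ (abs_nonneg _) (b5.trans (le_abs_self _)) 2) (sq_nonneg _)

end gamma

end Vale.Agent.P233.H794
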