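import Vale.Agent.P233.Gig.IfE
import Vale.Agent.P233.H183.Unit
import Vale.Agent.P233.H866.MdSqrt
import Vale.Agent.P233.H254.FlowApi
import Vale.Agent.P233.H794.Dens

/-! P233, block E6a, second half: from the functions `e j` to all test functions, and the form
`RadHess` of the bound (helper794). -/

set_option linter.all false

open MeasureTheory Filter Topology Set
open scoped ENNReal NNReal InnerProductSpace

universe u

namespace Vale.Agent.P233.H794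

/-! ### the functions `lct`, `bct` -/

theorem lct_eq {κ l : ℝ} (hl : 0 ≤ l) : lct κ l = cs κ l / (2 * hm1 κ (l ^ 2)) := by
  unfold lct hm1
  rcases hl.eq_or_lt with h | h
  · rw [← h]
    simp [cs_zero_arg]
  · rw [if_neg h.ne', if_neg (pow_ne_zero 2 h.ne'), Real.sqrt_sq hl]
    have : 2 * (sn κ l / (2 * l)) = sn κ l / l := by field_simp
    rw [this, div_div_eq_mul_div, mul_comm]

theorem hm1_pos' {κ l : ℝ} (hl : 0 ≤ l) (h : √κ * l < Real.pi) : 0 < hm1 κ (l ^ 2) :=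
  hm1_pos (sq_nonneg l) fun _ => by rwa [Real.sqrt_sq hl]

theorem bct_eq {κ l : ℝ} (hl : 0 ≤ l) (h : √κ * l < Real.pi) :
    bct κ l = -2 * hm2 κ (l ^ 2) / hm1 κ (l ^ 2) := by
  have hp := hm1_pos' hl h
  have hode := hm_ode (κ := κ) (sq_nonneg l)
  rw [Real.sqrt_sq hl] at hode
  unfold bct
  rcases hl.eq_or_lt with h0 | h0
  · rw [← h0]
    simp [hm1, hm2]
    ring
  · rw [if_neg h0.ne', lct_eq hl, ← hode]
    field_simp
    ring

theorem measurable_lct (κ : ℝ) : Measurable (lct κ) := by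
  unfold lct
  exact Measurable.ite (measurableSet_singleton 0) measurable_const
    ((measurable_id.mul (continuous_cs κ).measurable).div (continuous_sn κ).measurable)

theorem measurable_bct (κ : ℝ) : Measurable (bct κ) := by
  unfold bct
  exact Measurable.ite (measurableSet_singleton 0) measurable_const
    ((measurable_const.sub (measurable_lct κ)).div (measurable_id.pow_const 2))

theorem exists_bound {κ L : ℝ} (hL : √κ * L < Real.pi) :
    ∃ K : ℝ, 0 ≤ K ∧ ∀ l, 0 ≤ l → l ≤ L → |lct κ l| ≤ K ∧ |bct κ l| ≤ K := by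
  have hsm : ∀ l ∈ Icc 0 L, √κ * l < Real.pi := fun l hl =>
    (mul_le_mul_of_nonneg_left hl.2 (Real.sqrt_nonneg κ)).trans_lt hL
  have hm1c : ContinuousOn (fun l : ℝ => hm1 κ (l ^ 2)) (Icc 0 L) :=
    (continuousOn_hm1 κ).comp (continuous_pow 2).continuousOn fun l _ => sq_nonneg l
  have hm2c : ContinuousOn (fun l : ℝ => hm2 κ (l ^ 2)) (Icc 0 L) :=
    (continuousOn_hm2 κ).comp (continuous_pow 2).continuousOn fun l _ => sq_nonneg l
  have hpos : ∀ l ∈ Icc 0 L, 0 < hm1 κ (l ^ 2) := fun l hl => hm1_pos' hl.1 (hsm l hl)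
  obtain ⟨K1, hK1⟩ := (isCompact_Icc (a := (0 : ℝ)) (b := L)).exists_bound_of_continuousOn
    (f := fun l => cs κ l / (2 * hm1 κ (l ^ 2)))
    ((continuous_cs κ).continuousOn.div (continuousOn_const.mul hm1c) fun l hl =>
      (mul_pos two_pos (hpos l hl)).ne')
  obtain ⟨K2, hK2⟩ := (isCompact_Icc (a := (0 : ℝ)) (b := L)).exists_bound_of_continuousOn
    (f := fun l => -2 * hm2 κ (l ^ 2) / hm1 κ (l ^ 2))
    ((continuousOn_const.mul hm2c).div hm1c fun l hl => (hpos l hl).ne')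
  refine ⟨max (max K1 K2) 0, le_max_right _ _, fun l h0 h1 => ⟨?_, ?_⟩⟩
  · rw [lct_eq h0]
    exact (hK1 l ⟨h0, h1⟩).trans ((le_max_left _ _).trans (le_max_left _ _))
  · rw [bct_eq h0 (hsm l ⟨h0, h1⟩)]
    exact (hK2 l ⟨h0, h1⟩).trans ((le_max_right _ _).trans (le_max_left _ _))

/-- the comparison field at time one -/
theorem Mv_one {κ l A B : ℝ} (h : l = 0 → B = 0) :
    Mv κ l 1 A B = lct κ l * A + bct κ l * B ^ 2 := by
  unfold Mv bct lct
  by_cases hl : l = 0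
  · rw [if_pos hl, if_pos hl, if_pos hl, h hl]
    simp
  · rw [if_neg hl, if_neg hl, if_neg hl]
    simp only [mul_one, div_one]
    field_simp
    ring

section

variable {M : Type u} [MetricSpace M] [MeasurableSpace M] [BorelSpace M]
  [SecondCountableTopology M] {m : Measure M} {K N κ : ℝ}
variable {E : Type*} [NormedAddCommGroup E] [InnerProductSpace ℝ E]
variable {Gr : (M →ₘ[m] ℝ) → M → E} {HO : (M →ₘ[m] ℝ) → M → E →L[ℝ] E} {e : ℕ → M →ₘ[m] ℝ}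
variable {p : M} {s₀ C₀ : ℝ}

theorem spd_dist {x : M} (h : dist p x ^ 2 < 2 * C₀ * (1 + s₀)) :
    spd p s₀ C₀ x = dist p x / (1 + s₀) := by
  unfold spd; rw [if_pos h]

theorem spd_zero {x : M} (h : ¬ dist p x ^ 2 < 2 * C₀ * (1 + s₀)) : spd p s₀ C₀ x = 0 := by
  unfold spd; rw [if_neg h]

/-- `Γ F h = spd ⟨∇h, ∇d_p⟩` -/
theorem Γ_F_eq (hS : Std m K N) (hG : IsGrad (sob m) Gr) (hs₀ : 0 < s₀) (hC₀ : 0 < C₀)
    {h : M →ₘ[m] ℝ} (hh : h ∈ (sob m).W) :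
    ∀ᵐ x ∂m, (sob m).Γ (cl m (zr p s₀ C₀ 1)) h x
      = ⟪Gr h x, spd p s₀ C₀ x • rdir Gr p s₀ C₀ x⟫_ℝ := by
  have hD : IsDir (sob m) := (FA.gam hS).toIsDir
  have hpos : 0 < 2 * C₀ * (1 + s₀) := by positivity
  set ρ : ℝ := √(2 * C₀ * (1 + s₀)) with hρ
  have hρ0 : 0 < ρ := Real.sqrt_pos.2 hpos
  have hρ2 : ρ ^ 2 = 2 * C₀ * (1 + s₀) := Real.sq_sqrt hpos.le
  filter_upwards [H183.Γ_zr (m := m) hD hS.hfin (p := p) (t := 1) (by linarith) hρ0.le hρ2 hh,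
    H183.Γ_dtr_zero (m := m) hD hS.hfin p ρ hh,
    hG.inner h hh _ (H183.dtr_mem (m := m) hS.hfin p ρ)] with x h1 h2 h3
  have h4 : ⟪Gr h x, rdir Gr p s₀ C₀ x⟫_ℝ = (sob m).Γ (cl m (dtr p ρ)) h x := by
    unfold rdir
    rw [h3, hD.symm h hh _ (H183.dtr_mem (m := m) hS.hfin p ρ)]
  rw [h1, real_inner_smul_right, h4]
  by_cases hx : dist p x ^ 2 < 2 * C₀ * (1 + s₀)
  · have hx' : dist p x < ρ := by
      rw [← hρ2] at hx
      exact lt_of_pow_lt_pow_left₀ 2 hρ0.le hx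
    rw [spd_dist hx, min_eq_left hx'.le]
  · have hx' : ρ ≤ dist p x := by
      rw [← hρ2, not_lt] at hx
      exact le_of_sq_le_sq hx dist_nonneg
    rw [h2 hx', mul_zero, mul_zero]

theorem cl_memTop {f : M → ℝ} (hf : Measurable f) {c : ℝ} (hc : ∀ x, |f x| ≤ c) :
    MemLp (cl m f) ∞ m := by
  rw [mem_top_iff]
  refine ⟨c, ?_⟩
  filter_upwards [H183.cl_ae (m := m) hf.aestronglyMeasurable] with x hx
  rw [hx]; exact hc x

/-- the right hand sides agree -/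
theorem rhs_eq (hS : Std m K N) (hG : IsGrad (sob m) Gr) (hs₀ : 0 < s₀) (hC₀ : 0 < C₀)
    {h w : M →ₘ[m] ℝ} (hh : h ∈ (sob m).W) :
    ∫ x, w x * Mv κ (spd p s₀ C₀ x) 1 (‖Gr h x‖ ^ 2)
        ⟪Gr h x, spd p s₀ C₀ x • rdir Gr p s₀ C₀ x⟫_ℝ ∂m
      = I (w * (cl m (fun x => lct κ (spd p s₀ C₀ x)) * (sob m).Γ h h
          + cl m (fun x => bct κ (spd p s₀ C₀ x)) * (sob m).Γ (cl m (zr p s₀ C₀ 1)) h ^ 2)) := by
  have hsm : Measurable fun x : M => spd p s₀ C₀ x := FA.spd_measurable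
  set a := cl m (fun x => lct κ (spd p s₀ C₀ x)) with ha
  set b := cl m (fun x => bct κ (spd p s₀ C₀ x)) with hb
  set F := cl m (zr p s₀ C₀ 1) with hF
  unfold I
  refine integral_congr_ae ?_
  filter_upwards [mul_ae w (a * (sob m).Γ h h + b * (sob m).Γ F h ^ 2),
    add_ae (a * (sob m).Γ h h) (b * (sob m).Γ F h ^ 2), mul_ae a ((sob m).Γ h h),
    mul_ae b ((sob m).Γ F h ^ 2), sq_ae ((sob m).Γ F h),
    H183.cl_ae (m := m) ((measurable_lct κ).comp hsm).aestronglyMeasurable,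
    H183.cl_ae (m := m) ((measurable_bct κ).comp hsm).aestronglyMeasurable,
    Γ_F_eq (p := p) hS hG hs₀ hC₀ hh, hG.norm_sq hh] with x h1 h2 h3 h4 h5 h6 h7 h8 h9
  have h6' : a x = lct κ (spd p s₀ C₀ x) := h6
  have h7' : b x = bct κ (spd p s₀ C₀ x) := h7
  rw [h1, h2, h3, h4, h5, h6', h7', h8, h9, Mv_one]
  intro h0
  rw [h0, zero_smul, inner_zero_right]

/-- from the functions `e j` to all test functions -/
theorem radHess_of_basis (hS : Std m K N) (hSt : Stat (sob m) Gr HO e) (hs₀ : 0 < s₀)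
    (hC₀ : 0 < C₀) (hκ : √κ * √(2 * C₀) < Real.pi)
    (H : ∀ j, ∀ w ∈ (sob m).TestI, 0 ≤ w → (sob m).wH (cl m (zr p s₀ C₀ 1)) (e j) w
      ≤ ∫ x, w x * Mv κ (spd p s₀ C₀ x) 1 (‖Gr (e j) x‖ ^ 2)
        ⟪Gr (e j) x, spd p s₀ C₀ x • rdir Gr p s₀ C₀ x⟫_ℝ ∂m) :
    RadHess m κ p s₀ C₀ := by
  intro h hh w hw hw0
  haveI : SigmaFinite m := FA.sf hS
  have hC := FA.gam hS
  have hB := FA.bei hS
  have hD := hC.toIsDir
  have hsm : Measurable fun x : M => spd p s₀ C₀ x := FA.spd_measurable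
  have hpos : 0 < 2 * C₀ * (1 + s₀) := by positivity
  set ρ : ℝ := √(2 * C₀ * (1 + s₀)) with hρ
  have hρ0 : 0 < ρ := Real.sqrt_pos.2 hpos
  have hρ2 : ρ ^ 2 = 2 * C₀ * (1 + s₀) := Real.sq_sqrt hpos.le
  have hFA := H183.zr_mem_A (m := m) hD hS.hfin (p := p) (t := 1) (by linarith) hρ0.le hρ2
  set F := cl m (zr p s₀ C₀ 1) with hF
  -- the gradient of `F` is bounded
  have hF' : MemLp ((sob m).Γ F F) ∞ m := by
    rw [mem_top_iff]
    refine ⟨(ρ / (1 + s₀)) ^ 2, ?_⟩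
    have hDW := H183.dtr_mem (m := m) hS.hfin p ρ
    have h1 := H183.Γ_zr (m := m) hD hS.hfin (p := p) (t := 1) (by linarith) hρ0.le hρ2 hFA.1
    have h2 := H183.Γ_zr (m := m) hD hS.hfin (p := p) (t := 1) (by linarith) hρ0.le hρ2 hDW
    have h3 := FA.dtr_Γ_le (m := m) hS p ρ
    rw [hD.symm _ hFA.1 _ hDW] at h2
    filter_upwards [h1, h2, h3, hD.Γ_nonneg_ae hDW] with x a1 a2 a3 a4
    rw [a1, a2, ← mul_assoc, abs_mul, abs_of_nonneg a4, ← sq, abs_of_nonneg (sq_nonneg _)]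
    have a5 : (min (dist p x) ρ / (1 + s₀)) ^ 2 ≤ (ρ / (1 + s₀)) ^ 2 := by
      have : 0 ≤ min (dist p x) ρ := le_min dist_nonneg hρ0.le
      gcongr
      exact min_le_right _ _
    calc (min (dist p x) ρ / (1 + s₀)) ^ 2 * (sob m).Γ (cl m (dtr p ρ)) (cl m (dtr p ρ)) x
        ≤ (ρ / (1 + s₀)) ^ 2 * 1 := mul_le_mul a5 a3 a4 (by positivity)
      _ = _ := mul_one _
  -- bounds
  obtain ⟨K0, hK0, hK0'⟩ := exists_bound (κ := κ) (L := √(2 * C₀)) hκ
  have hspd : ∀ x, |lct κ (spd p s₀ C₀ x)| ≤ K0 ∧ |bct κ (spd p s₀ C₀ x)| ≤ K0 := fun x =>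
    hK0' _ (FA.spd_nonneg hs₀ x) (FA.spd_le hs₀ hC₀ x)
  have ha : MemLp (cl m (fun x => lct κ (spd p s₀ C₀ x))) ∞ m :=
    cl_memTop ((measurable_lct κ).comp hsm) fun x => (hspd x).1
  have hb : MemLp (cl m (fun x => bct κ (spd p s₀ C₀ x))) ∞ m :=
    cl_memTop ((measurable_bct κ).comp hsm) fun x => (hspd x).2
  -- the approximating sequence
  have hseq : ∀ n : ℕ, ∃ i, (sob m).nrm2 (h - e i) + I ((sob m).lap (h - e i) ^ 2)
      < ((n : ℝ) + 1)⁻¹ := fun n => hSt.dense h hh _ (by positivity)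
  choose k hk using hseq
  have heT : ∀ j, e j ∈ (sob m).Test := fun j => (hSt.testI j).1
  have heW : ∀ j, e j ∈ (sob m).W := fun j => (IsGamma.test_A hC (heT j)).1
  have hhW : h ∈ (sob m).W := (IsGamma.test_A hC hh.1).1
  have hq0 : ∀ n, 0 ≤ (sob m).nrm2 (h - e (k n)) + I ((sob m).lap (h - e (k n)) ^ 2) := fun n =>
    add_nonneg (hD.nrm2_nonneg (hD.sub_mem hhW (heW _))) (I_sq_nonneg _)
  have hlim : Tendsto (fun n => (sob m).nrm2 (h - e (k n)) + I ((sob m).lap (h - e (k n)) ^ 2))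
      atTop (𝓝 0) := squeeze_zero hq0 (fun n => (hk n).le) tendsto_inv_succ
  have hlimE : Tendsto (fun n => I ((sob m).Γ (h - e (k n)) (h - e (k n)))) atTop (𝓝 0) :=
    squeeze_zero (fun n => hD.E_nonneg (hD.sub_mem hhW (heW _)))
      (fun n => (hD.E_le_nrm2 _).trans (le_add_of_nonneg_right (I_sq_nonneg _))) hlim
  have hwT : w ∈ (sob m).Test := hw.1
  have L1 := tendsto_wH hC hB hSt.grad hSt.hess hFA.1 hF' hwT hh.1 (fun n => heT (k n)) hlim
  have L2 := tendsto_rhs hC hB hSt.grad hSt.hess hFA.1 hF' ha hb (IsGamma.test_A hC hwT).2 hhW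
    (fun n => heW (k n)) hlimE
  refine le_of_tendsto_of_tendsto' L1 L2 fun n => ?_
  have h1 := H (k n) w hw hw0
  rw [rhs_eq hS hSt.grad hs₀ hC₀ (heW (k n))] at h1
  exact h1

end

end Vale.Agent.P233.H794
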